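import Vale.Agent.Lib.P125.Defs

namespace Vale.Agent.Lib.P125

open Finset

section cube

variable {ι : Type} [Fintype ι] [DecidableEq ι]

/-- flip coordinate `a` -/
def flip (a : ι) (e : ι → Bool) : ι → Bool := Function.update e a (!e a)

def sgn (b : Bool) : ℝ := if b then 1 else -1

/-- transition matrix of the simple random walk on the cube -/
noncomputable def cubeP : Matrix (ι → Bool) (ι → Bool) ℝ :=
  fun e e' => (1 / (Fintype.card ι : ℝ)) * ∑ a, if e' = flip a e then 1 else 0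

noncomputable def cubePi : (ι → Bool) → ℝ := fun _ => 1 / (Fintype.card (ι → Bool) : ℝ)

lemma flip_flip (a : ι) (e : ι → Bool) : flip a (flip a e) = e := by
  funext i
  by_cases h : i = a
  · subst h; simp [flip]
  · simp [flip, h]

lemma flip_apply_self (a : ι) (e : ι → Bool) : flip a e a = !e a := by simp [flip]

lemma flip_apply_ne {a i : ι} (h : i ≠ a) (e : ι → Bool) : flip a e i = e i := by simp [flip, h]

lemma sum_cubeP (e : ι → Bool) (G : (ι → Bool) → ℝ) :
    ∑ e', cubeP e e' * G e' = (1 / (Fintype.card ι : ℝ)) * ∑ a, G (flip a e) := by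
  unfold cubeP
  simp_rw [mul_assoc, ← Finset.mul_sum, Finset.sum_mul]
  rw [Finset.sum_comm]
  congr 1
  apply Finset.sum_congr rfl
  intro a _
  simp

lemma cube_rev [Nonempty ι] : IsRevChain (cubePi (ι := ι)) cubeP where
  pi_nonneg := fun i => by unfold cubePi; positivity
  pi_sum := by
    unfold cubePi
    simp
  P_nonneg := fun i j => by
    unfold cubeP
    apply mul_nonneg (by positivity)
    apply Finset.sum_nonneg
    intro a _
    split_ifs <;> norm_num
  P_sum := fun i => by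
    have := sum_cubeP i (fun _ => 1)
    simp only [mul_one] at this
    rw [this]
    simp
  reversible := fun i j => by
    unfold cubePi cubeP
    congr 2
    apply Finset.sum_congr rfl
    intro a _
    have : (j = flip a i) ↔ (i = flip a j) := by
      constructor
      · intro h; rw [h, flip_flip]
      · intro h; rw [h, flip_flip]
    simp [this]

variable {X : Type*} [NormedAddCommGroup X] [NormedSpace ℝ X]

noncomputable def cubeF (x : ι → X) (e : ι → Bool) : X := ∑ a, sgn (e a) • x a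

lemma sgn_not (b : Bool) : sgn (!b) = - sgn b := by cases b <;> simp [sgn]

lemma cubeF_flip (x : ι → X) (a : ι) (e : ι → Bool) :
    cubeF x (flip a e) - cubeF x e = (-2 * sgn (e a)) • x a := by
  unfold cubeF
  rw [← Finset.sum_sub_distrib]
  rw [Finset.sum_eq_single a]
  · rw [flip_apply_self, sgn_not, ← sub_smul]
    congr 1
    ring
  · intro i _ hi
    rw [flip_apply_ne hi, sub_self]
  · intro h; exact absurd (Finset.mem_univ a) h

lemma cubeF_flip2 (x : ι → X) {a b : ι} (hab : b ≠ a) (e : ι → Bool) :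
    cubeF x (flip b (flip a e)) - cubeF x e
      = (-2 * sgn (e b)) • x b + (-2 * sgn (e a)) • x a := by
  have h1 := cubeF_flip x b (flip a e)
  have h2 := cubeF_flip x a e
  rw [flip_apply_ne hab] at h1
  rw [← h1, ← h2]
  abel

/-- the symmetric two-point quantity -/
noncomputable def G (p : ℝ) (x y : X) : ℝ := ‖x + y‖ ^ p + ‖x - y‖ ^ p

lemma norm_two_smul_rpow (p : ℝ) (c : ℝ) (hc : |c| = 2) (z : X) :
    ‖c • z‖ ^ p = 2 ^ p * ‖z‖ ^ p := by
  rw [norm_smul, Real.norm_eq_abs, hc, Real.mul_rpow (by norm_num) (norm_nonneg _)]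

lemma pair_sum (p : ℝ) (x y : X) (s t : Bool) :
    ‖(-2 * sgn t) • y + (-2 * sgn s) • x‖ ^ p + ‖(-2 * sgn t) • y + (-2 * sgn (!s)) • x‖ ^ p
      = 2 ^ p * G p x y := by
  unfold G
  cases s <;> cases t <;> simp only [sgn, Bool.not_true, Bool.not_false, if_true, if_false,
    Bool.false_eq_true]
  · have e1 : (-2 * (-1:ℝ)) • y + (-2 * (-1:ℝ)) • x = (2:ℝ) • (x + y) := by
      rw [smul_add]; norm_num; abel
    have e2 : (-2 * (-1:ℝ)) • y + (-2 * (1:ℝ)) • x = (-2:ℝ) • (x - y) := by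
      rw [smul_sub]; norm_num; abel
    rw [e1, e2, norm_two_smul_rpow p 2 (by norm_num), norm_two_smul_rpow p (-2) (by norm_num)]
    ring
  · have e1 : (-2 * (1:ℝ)) • y + (-2 * (-1:ℝ)) • x = (2:ℝ) • (x - y) := by
      rw [smul_sub]; norm_num; abel
    have e2 : (-2 * (1:ℝ)) • y + (-2 * (1:ℝ)) • x = (-2:ℝ) • (x + y) := by
      rw [smul_add]; norm_num; abel
    rw [e1, e2, norm_two_smul_rpow p 2 (by norm_num), norm_two_smul_rpow p (-2) (by norm_num)]
    ring
  · have e1 : (-2 * (-1:ℝ)) • y + (-2 * (1:ℝ)) • x = (-2:ℝ) • (x - y) := by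
      rw [smul_sub]; norm_num; abel
    have e2 : (-2 * (-1:ℝ)) • y + (-2 * (-1:ℝ)) • x = (2:ℝ) • (x + y) := by
      rw [smul_add]; norm_num; abel
    rw [e1, e2, norm_two_smul_rpow p 2 (by norm_num), norm_two_smul_rpow p (-2) (by norm_num)]
    ring
  · have e1 : (-2 * (1:ℝ)) • y + (-2 * (1:ℝ)) • x = (-2:ℝ) • (x + y) := by
      rw [smul_add]; norm_num; abel
    have e2 : (-2 * (1:ℝ)) • y + (-2 * (-1:ℝ)) • x = (2:ℝ) • (x - y) := by
      rw [smul_sub]; norm_num; abel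
    rw [e1, e2, norm_two_smul_rpow p 2 (by norm_num), norm_two_smul_rpow p (-2) (by norm_num)]
    ring

lemma sum_flip (a : ι) (F : (ι → Bool) → ℝ) : ∑ e, F (flip a e) = ∑ e, F e :=
  Equiv.sum_comp (Function.Involutive.toPerm (flip a) (flip_flip a)) F

lemma two_step_sum (p : ℝ) (x : ι → X) {a b : ι} (hab : b ≠ a) :
    2 * ∑ e, ‖cubeF x (flip b (flip a e)) - cubeF x e‖ ^ p
      = (Fintype.card (ι → Bool) : ℝ) * (2 ^ p * G p (x a) (x b)) := by
  have h1 : ∀ e : ι → Bool, ‖cubeF x (flip b (flip a e)) - cubeF x e‖ ^ p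
      = ‖(-2 * sgn (e b)) • x b + (-2 * sgn (e a)) • x a‖ ^ p := by
    intro e; rw [cubeF_flip2 x hab]
  simp_rw [h1]
  have h2 := sum_flip a (fun e => ‖(-2 * sgn (e b)) • x b + (-2 * sgn (e a)) • x a‖ ^ p)
  simp only [flip_apply_self, flip_apply_ne hab] at h2
  rw [two_mul]
  nth_rewrite 2 [← h2]
  rw [← Finset.sum_add_distrib]
  simp_rw [pair_sum]
  simp

lemma one_step_sum (p : ℝ) (x : ι → X) (a : ι) :
    ∑ e, ‖cubeF x (flip a e) - cubeF x e‖ ^ p
      = (Fintype.card (ι → Bool) : ℝ) * (2 ^ p * ‖x a‖ ^ p) := by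
  have h1 : ∀ e : ι → Bool, ‖cubeF x (flip a e) - cubeF x e‖ ^ p = 2 ^ p * ‖x a‖ ^ p := by
    intro e
    rw [cubeF_flip]
    apply norm_two_smul_rpow
    cases e a <;> simp [sgn]
  simp_rw [h1]
  simp

lemma sum_cubeP_sq (e : ι → Bool) (g : (ι → Bool) → ℝ) :
    ∑ e', (cubeP ^ 2) e e' * g e'
      = (1 / (Fintype.card ι : ℝ)) ^ 2 * ∑ a, ∑ b, g (flip b (flip a e)) := by
  simp_rw [pow_two, Matrix.mul_apply, Finset.sum_mul]
  rw [Finset.sum_comm]
  simp_rw [mul_assoc, ← Finset.mul_sum, sum_cubeP]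
  rw [← Finset.mul_sum]

theorem key_ineq {p K : ℝ} (hp : 0 < p) (h : HasMarkovType X p K) [Nonempty ι] (x : ι → X) :
    ∑ a, ∑ b, (if b = a then 0 else G p (x a) (x b))
      ≤ 4 * (Fintype.card ι : ℝ) * K ^ p * ∑ a, ‖x a‖ ^ p := by
  have H := h (ι → Bool) cubePi cubeP cube_rev (cubeF x) 2 (by norm_num)
  set N : ℝ := (Fintype.card (ι → Bool) : ℝ) with hN
  set n : ℝ := (Fintype.card ι : ℝ) with hn
  have hNpos : 0 < N := by rw [hN]; exact_mod_cast Fintype.card_pos
  have hnpos : 0 < n := by rw [hn]; exact_mod_cast Fintype.card_pos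
  have h2p : (0:ℝ) < 2 ^ p := Real.rpow_pos_of_pos (by norm_num) p
  -- left side
  have L : ∑ i, ∑ j, cubePi i * (cubeP ^ 2) i j * ‖cubeF x j - cubeF x i‖ ^ p
      = (1 / n) ^ 2 * (2 ^ p / 2) * ∑ a, ∑ b, (if b = a then 0 else G p (x a) (x b)) := by
    have s1 : ∀ i : ι → Bool, ∑ j, cubePi i * (cubeP ^ 2) i j * ‖cubeF x j - cubeF x i‖ ^ p
        = (1 / N) * ((1 / n) ^ 2 * ∑ a, ∑ b, ‖cubeF x (flip b (flip a i)) - cubeF x i‖ ^ p) := by
      intro i
      simp_rw [mul_assoc]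
      rw [← Finset.mul_sum, sum_cubeP_sq i (fun j => ‖cubeF x j - cubeF x i‖ ^ p)]
      rfl
    simp_rw [s1]
    rw [← Finset.mul_sum, ← Finset.mul_sum]
    have s2 : ∑ i : ι → Bool, ∑ a, ∑ b, ‖cubeF x (flip b (flip a i)) - cubeF x i‖ ^ p
        = ∑ a, ∑ b, ∑ i : ι → Bool, ‖cubeF x (flip b (flip a i)) - cubeF x i‖ ^ p := by
      rw [Finset.sum_comm]
      apply Finset.sum_congr rfl
      intro a _
      rw [Finset.sum_comm]
    rw [s2]
    have s3 : ∀ a b : ι, ∑ i : ι → Bool, ‖cubeF x (flip b (flip a i)) - cubeF x i‖ ^ p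
        = N * (2 ^ p / 2) * (if b = a then 0 else G p (x a) (x b)) := by
      intro a b
      by_cases hab : b = a
      · subst hab
        simp [flip_flip, Real.zero_rpow hp.ne']
      · have := two_step_sum p x hab
        rw [if_neg hab]
        linarith
    simp_rw [s3]
    simp_rw [← Finset.mul_sum]
    field_simp
  have R : ∑ i, ∑ j, cubePi i * cubeP i j * ‖cubeF x j - cubeF x i‖ ^ p
      = (1 / n) * 2 ^ p * ∑ a, ‖x a‖ ^ p := by
    have s1 : ∀ i : ι → Bool, ∑ j, cubePi i * cubeP i j * ‖cubeF x j - cubeF x i‖ ^ p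
        = (1 / N) * ((1 / n) * ∑ a, ‖cubeF x (flip a i) - cubeF x i‖ ^ p) := by
      intro i
      simp_rw [mul_assoc]
      rw [← Finset.mul_sum, sum_cubeP i (fun j => ‖cubeF x j - cubeF x i‖ ^ p)]
      rfl
    simp_rw [s1]
    rw [← Finset.mul_sum, ← Finset.mul_sum, Finset.sum_comm]
    simp_rw [one_step_sum]
    simp_rw [← Finset.mul_sum]
    rw [← hN]
    field_simp
  rw [L, R] at H
  have H2 : (1 / n) ^ 2 * (2 ^ p / 2) * ∑ a, ∑ b, (if b = a then 0 else G p (x a) (x b))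
      ≤ (1 / n) ^ 2 * (2 ^ p / 2) * (4 * n * K ^ p * ∑ a, ‖x a‖ ^ p) := by
    calc _ ≤ _ := H
      _ = _ := by
        push_cast
        field_simp
        ring
  exact le_of_mul_le_mul_left H2 (by positivity)

end cube

variable {X : Type*} [NormedAddCommGroup X] [NormedSpace ℝ X]

lemma G_self {p : ℝ} (hp : 0 < p) (u : X) : G p u u = 2 ^ p * ‖u‖ ^ p := by
  unfold G
  rw [sub_self, norm_zero, Real.zero_rpow hp.ne', add_zero, ← two_smul ℝ u]
  exact norm_two_smul_rpow p 2 (by norm_num) u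

lemma G_comm (p : ℝ) (u v : X) : G p v u = G p u v := by
  unfold G
  rw [add_comm v u, norm_sub_rev v u]

lemma sum_off_diag {ι : Type} [Fintype ι] [DecidableEq ι] (F : ι → ι → ℝ) :
    ∑ a, ∑ b, (if b = a then 0 else F a b) = ∑ a, ∑ b, F a b - ∑ a, F a a := by
  rw [← Finset.sum_sub_distrib]
  apply Finset.sum_congr rfl
  intro a _
  have : ∀ b, (if b = a then 0 else F a b) = F a b - (if b = a then F a b else 0) := by
    intro b; split_ifs <;> simp
  simp_rw [this]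
  rw [Finset.sum_sub_distrib]
  simp

lemma copies_ineq {p K : ℝ} (hp : 0 < p) (h : HasMarkovType X p K) (u v : X) (m : ℕ)
    (hm : 1 ≤ m) :
    G p u v ≤ (4 * K ^ p - 2 ^ p / 2) * (‖u‖ ^ p + ‖v‖ ^ p)
      + (2 ^ p / 2) * (‖u‖ ^ p + ‖v‖ ^ p) / m := by
  have : Nonempty (Fin m ⊕ Fin m) := ⟨Sum.inl ⟨0, hm⟩⟩
  have H := key_ineq hp h (ι := Fin m ⊕ Fin m) (Sum.elim (fun _ => u) (fun _ => v))
  rw [sum_off_diag (fun a b => G p (Sum.elim (fun _ => u) (fun _ => v) a)
    (Sum.elim (fun _ => u) (fun _ => v) b))] at H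
  simp only [Fintype.sum_sum_type, Sum.elim_inl, Sum.elim_inr, Finset.sum_const, Finset.card_univ,
    Fintype.card_fin, nsmul_eq_mul, Fintype.card_sum, G_self hp, G_comm p u v] at H
  have hmpos : (0:ℝ) < m := by exact_mod_cast hm
  push_cast at H
  have H3 : (2 * (m:ℝ) ^ 2) * G p u v ≤ (2 * (m:ℝ) ^ 2) * ((4 * K ^ p - 2 ^ p / 2) * (‖u‖ ^ p + ‖v‖ ^ p)
      + (2 ^ p / 2) * (‖u‖ ^ p + ‖v‖ ^ p) / m) := by
    have : (2 * (m:ℝ) ^ 2) * ((4 * K ^ p - 2 ^ p / 2) * (‖u‖ ^ p + ‖v‖ ^ p)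
      + (2 ^ p / 2) * (‖u‖ ^ p + ‖v‖ ^ p) / m)
      = (2 * (m:ℝ) ^ 2) * ((4 * K ^ p - 2 ^ p / 2) * (‖u‖ ^ p + ‖v‖ ^ p))
        + m * 2 ^ p * (‖u‖ ^ p + ‖v‖ ^ p) := by
      field_simp
    rw [this]
    nlinarith [H]
  exact le_of_mul_le_mul_left H3 (by positivity)

/-- von Neumann-Jordan type inequality forced by Markov type `p` with constant `K`. -/
theorem nj_ineq {p K : ℝ} (hp : 0 < p) (h : HasMarkovType X p K) (u v : X) :
    ‖u + v‖ ^ p + ‖u - v‖ ^ p ≤ (4 * K ^ p - 2 ^ p / 2) * (‖u‖ ^ p + ‖v‖ ^ p) := by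
  by_contra hcon
  rw [not_le] at hcon
  set A := ‖u‖ ^ p + ‖v‖ ^ p with hA
  set c := (4 * K ^ p - 2 ^ p / 2) with hc
  have hApos : 0 ≤ A := by positivity
  have h2p : (0:ℝ) < 2 ^ p := Real.rpow_pos_of_pos (by norm_num) p
  set d := ‖u + v‖ ^ p + ‖u - v‖ ^ p - c * A with hd
  have hdpos : 0 < d := by rw [hd]; linarith
  obtain ⟨m, hm⟩ := exists_nat_gt ((2 ^ p / 2) * A / d)
  have hm0 : (0:ℝ) < m := lt_of_le_of_lt (by positivity) hm
  have hm1 : 1 ≤ m := by
    have : 0 < m := by exact_mod_cast hm0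
    omega
  have H := copies_ineq hp h u v m hm1
  unfold G at H
  rw [← hA, ← hc] at H
  have : (2 ^ p / 2) * A / m < d := by
    rw [div_lt_iff₀ hm0]
    rw [div_lt_iff₀ hdpos] at hm
    linarith
  linarith

lemma norm_sum_le_pair {n : ℕ} (y : Fin n → X) (hy : ∀ i, ‖y i‖ ≤ 1) {i j : Fin n} (hij : i ≠ j) :
    ‖∑ l, y l‖ ≤ ‖y i + y j‖ + ((n:ℝ) - 2) := by
  have h1 : ∑ l, y l = y i + (y j + ∑ l ∈ (Finset.univ.erase i).erase j, y l) := by
    rw [Finset.add_sum_erase _ _ (by simp [hij.symm]), Finset.add_sum_erase _ _ (Finset.mem_univ i)]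
  rw [h1, ← add_assoc]
  refine (norm_add_le _ _).trans ?_
  gcongr
  refine (norm_sum_le _ _).trans ?_
  have h2 : ∑ l ∈ (Finset.univ.erase i).erase j, ‖y l‖ ≤ ∑ l ∈ (Finset.univ.erase i).erase j, (1:ℝ) :=
    Finset.sum_le_sum (fun l _ => hy l)
  refine h2.trans ?_
  have hn : 2 ≤ n := by
    have hi := i.isLt
    have hj := j.isLt
    have : i.val ≠ j.val := fun h => hij (Fin.ext h)
    omega
  rw [Finset.sum_const, Finset.card_erase_of_mem (by simp [hij.symm]),
    Finset.card_erase_of_mem (Finset.mem_univ i)]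
  simp only [Finset.card_univ, Fintype.card_fin, nsmul_eq_mul, mul_one]
  have : ((n - 1 - 1 : ℕ) : ℝ) = (n:ℝ) - 2 := by
    have : n - 1 - 1 = n - 2 := by omega
    rw [this]
    push_cast [Nat.cast_sub hn]
    ring
  rw [this]

theorem jconvex_of_markov {p K : ℝ} (hp : 0 < p) (hK : 0 ≤ K) (h : HasMarkovType X p K)
    (hKp : K ^ p < 2 ^ (p - 1)) : JConvex X := by
  have h2p : (0:ℝ) < 2 ^ p := Real.rpow_pos_of_pos (by norm_num) p
  have hKp0 : 0 ≤ K ^ p := Real.rpow_nonneg hK p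
  have e2 : (2:ℝ) ^ (p - 1) = 2 ^ p / 2 := by
    rw [Real.rpow_sub (by norm_num), Real.rpow_one]
  rw [e2] at hKp
  set a := 2 * K ^ p with ha
  have ha2 : a < 2 ^ p := by rw [ha]; linarith
  set b := (a + 2 ^ p) / 2 with hb
  have hab : a < b := by rw [hb]; linarith
  have hb2 : b < 2 ^ p := by rw [hb]; linarith
  have hbpos : 0 < b := by rw [hb, ha]; positivity
  set θ := b ^ (1 / p) with hθ
  have hθp : θ ^ p = b := by
    rw [hθ, one_div, Real.rpow_inv_rpow hbpos.le hp.ne']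
  have hθpos : 0 < θ := Real.rpow_pos_of_pos hbpos _
  have hθ2 : θ < 2 := by
    have : θ < (2 ^ p) ^ (1 / p) := Real.rpow_lt_rpow hbpos.le hb2 (by positivity)
    rwa [one_div, Real.rpow_rpow_inv (by norm_num) hp.ne'] at this
  obtain ⟨n, hn⟩ := exists_nat_gt (max (b / (b - a)) 2)
  have hn2 : (2:ℝ) < n := lt_of_le_of_lt (le_max_right _ _) hn
  have hn1 : b / (b - a) < n := lt_of_le_of_lt (le_max_left _ _) hn
  have hn2' : 2 ≤ n := by
    have : (2:ℕ) < n := by exact_mod_cast hn2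
    omega
  have hnpos : (0:ℝ) < n := by linarith
  refine ⟨n, (2 - θ) / n, hn2', by apply div_pos <;> linarith, ?_⟩
  intro x hx
  by_contra hcon
  have hcon' : ∀ k : ℕ, 1 ≤ k → k ≤ n →
      (n:ℝ) - (2 - θ) < ‖∑ i : Fin n, (if i.val < k then x i else - x i)‖ := by
    intro k hk1 hk2
    by_contra hh
    apply hcon
    refine ⟨k, hk1, hk2, ?_⟩
    rw [not_lt] at hh
    have : (n:ℝ) * (1 - (2 - θ) / n) = n - (2 - θ) := by field_simp
    rw [this]
    exact hh
  -- pairs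
  have hpair : ∀ i j : Fin n, i < j → θ < ‖x i + x j‖ ∧ θ < ‖x i - x j‖ := by
    intro i j hij
    have hne : i ≠ j := ne_of_lt hij
    constructor
    · have h1 := hcon' n (by omega) le_rfl
      have h2 := norm_sum_le_pair (fun l : Fin n => if l.val < n then x l else - x l)
        (by intro l; simp [l.isLt, hx l]) hne
      simp only [i.isLt, j.isLt, if_true] at h2
      linarith
    · have h1 := hcon' (i.val + 1) (by omega) (by have := i.isLt; omega)
      have h2 := norm_sum_le_pair (fun l : Fin n => if l.val < i.val + 1 then x l else - x l)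
        (by intro l; split_ifs <;> simp [hx l]) hne
      have hj : ¬ (j.val < i.val + 1) := by
        have : i.val < j.val := hij
        omega
      simp only [Nat.lt_succ_self, if_true, hj, if_false] at h2
      rw [← sub_eq_add_neg] at h2
      linarith
  have hG : ∀ a' b' : Fin n, b' ≠ a' → 2 * b ≤ G p (x a') (x b') := by
    intro a' b' hne
    have key : ∀ i j : Fin n, i < j → 2 * b ≤ G p (x i) (x j) := by
      intro i j hij
      obtain ⟨h1, h2⟩ := hpair i j hij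
      unfold G
      have g1 : θ ^ p ≤ ‖x i + x j‖ ^ p := Real.rpow_le_rpow hθpos.le h1.le hp.le
      have g2 : θ ^ p ≤ ‖x i - x j‖ ^ p := Real.rpow_le_rpow hθpos.le h2.le hp.le
      rw [hθp] at g1 g2
      linarith
    rcases lt_or_gt_of_ne hne with hlt | hgt
    · rw [← G_comm]; exact key b' a' hlt
    · exact key a' b' hgt
  have : Nonempty (Fin n) := ⟨⟨0, by omega⟩⟩
  have H := key_ineq hp h x
  have Hl : ∑ a' : Fin n, ∑ b' : Fin n, (if b' = a' then 0 else 2 * b)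
      ≤ ∑ a' : Fin n, ∑ b' : Fin n, (if b' = a' then 0 else G p (x a') (x b')) := by
    apply Finset.sum_le_sum; intro a' _
    apply Finset.sum_le_sum; intro b' _
    split_ifs with hh
    · exact le_rfl
    · exact hG a' b' hh
  rw [sum_off_diag (fun _ _ => 2 * b)] at Hl
  simp only [Finset.sum_const, Finset.card_univ, Fintype.card_fin, nsmul_eq_mul] at Hl
  have Hr : ∑ a' : Fin n, ‖x a'‖ ^ p ≤ n := by
    have : ∑ a' : Fin n, ‖x a'‖ ^ p ≤ ∑ a' : Fin n, (1:ℝ) := by
      apply Finset.sum_le_sum; intro a' _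
      exact Real.rpow_le_one (norm_nonneg _) (hx a') hp.le
    simpa using this
  have H4 : 4 * (Fintype.card (Fin n) : ℝ) * K ^ p * ∑ a' : Fin n, ‖x a'‖ ^ p ≤ 4 * n * K ^ p * n := by
    rw [Fintype.card_fin]
    gcongr
  have H5 : (n:ℝ) * (n * (2 * b)) - n * (2 * b) ≤ 4 * n * K ^ p * n := Hl.trans (H.trans H4)
  have H6 : b < n * (b - a) := by
    rwa [div_lt_iff₀ (by linarith)] at hn1
  have H7 : (n:ℝ) * (n * (2 * b)) - n * (2 * b) - 4 * n * K ^ p * n = 2 * n * (n * (b - a) - b) := by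
    rw [ha]; ring
  have H8 : 0 < 2 * (n:ℝ) * (n * (b - a) - b) := by
    apply mul_pos (by positivity); linarith
  linarith

end Vale.Agent.Lib.P125
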