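import Mathlib

namespace Vale.Agent.Lib.P125

open Finset

/-- `(π, P)` is a stationary reversible Markov chain on the finite set `S`:
`π` is a probability vector, `P` a stochastic matrix, and detailed balance holds. -/
structure IsRevChain {S : Type} [Fintype S] (π : S → ℝ) (P : Matrix S S ℝ) : Prop where
  pi_nonneg : ∀ i, 0 ≤ π i
  pi_sum : ∑ i, π i = 1
  P_nonneg : ∀ i j, 0 ≤ P i j
  P_sum : ∀ i, ∑ j, P i j = 1
  reversible : ∀ i j, π i * P i j = π j * P j i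

/-- `X` has Markov type `p` with constant `K`:
`E ‖f(Z_t) - f(Z_0)‖^p ≤ K^p t E ‖f(Z_1) - f(Z_0)‖^p` for all stationary reversible finite chains;
the law of `(Z_0, Z_t)` is `π i * (P ^ t) i j`. -/
def HasMarkovType (X : Type*) [NormedAddCommGroup X] [NormedSpace ℝ X] (p K : ℝ) : Prop :=
  ∀ (S : Type) [Fintype S] [DecidableEq S] (π : S → ℝ) (P : Matrix S S ℝ), IsRevChain π P →
    ∀ (f : S → X) (t : ℕ), 1 ≤ t →
      ∑ i, ∑ j, π i * (P ^ t) i j * ‖f j - f i‖ ^ p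
        ≤ K ^ p * t * ∑ i, ∑ j, π i * P i j * ‖f j - f i‖ ^ p

/-- James' J-convexity: for some `n ≥ 2` and `δ > 0`, every `x_1, …, x_n` in the unit ball has
some `1 ≤ k ≤ n` with `‖x_1 + ⋯ + x_k - x_{k+1} - ⋯ - x_n‖ ≤ n (1 - δ)`. -/
def JConvex (X : Type*) [NormedAddCommGroup X] [NormedSpace ℝ X] : Prop :=
  ∃ (n : ℕ) (δ : ℝ), 2 ≤ n ∧ 0 < δ ∧ ∀ x : Fin n → X, (∀ i, ‖x i‖ ≤ 1) →
    ∃ k : ℕ, 1 ≤ k ∧ k ≤ n ∧ ‖∑ i : Fin n, (if i.val < k then x i else - x i)‖ ≤ n * (1 - δ)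

end Vale.Agent.Lib.P125
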